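import Vale.Agent.Lib.P037.BV.Defs
import Vale.Agent.Lib.P037.Blow.BaseCount

/-!
MODULES V5a, V5b, V5c (P037 BV).  FROZEN statements.  Average number of copies of `H` in the random row collapse.

V5c `monotone_blk`, `card_blk_le`: `i ↦ min (i / L) (n / L - 1)` is monotone; the fibre of `q` is contained in
`{i | q * L ≤ i < q * L + 2 * L}` (for `q = n / L - 1` use `n < (n / L + 1) * L`), which has at most `2 * L` elements.

V5a `numCopies_col_le`.  ROUTE: map a copy `(f, g)` of `H` in `col L hL hLn A s` to `(blk ∘ f, g)`.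
`blk ∘ f` is monotone, and strictly monotone because rows of `col ..` in the same block are equal while adjacent rows
of `H` differ (as in `copy_of_collapse`).  The image lies in the set counted by `repCopies`.  The fibre over `(Q, g)` is
contained in `{f | ∀ a, blk (f a) = Q a} × {g}`, of size `≤ (2 * L) ^ k` (`Fintype.card_pi`-type bound with
`card_blk_le`).  Use `Set.ncard_le_mul...`/`Finset.card_le_mul_card_image`.

V5b `sum_repCopies_mul`.  ROUTE: swap sums: `∑ s, repCopies s = ∑ (Q, g), #{s | ∀ a b, A (row (Q a) (s (Q a))) (g b) = H a b}`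
over strictly monotone `Q, g`.  For fixed `(Q, g)`, `Blow.base_count` with `σ := Q` (injective), `X := Fin L`,
`C := {u : Fin k → Fin L | ∀ a b, A (row (Q a) (u a)) (g b) = H a b}` gives
`#{s | s ∘ Q ∈ C} * L ^ k = C.ncard * L ^ (n / L)`.  Finally `(Q, u, g) ↦ (fun a => row (Q a) (u a), g)` is injective
(`q * L + σ` determines `q, σ`) with values in the copies of `H` in `A` (strictly monotone since `Q` is), so
`∑ (Q, g), C.ncard ≤ numCopies H A`.
-/

namespace Vale.Agent.Lib.P037.BV

open Vale.Agent.Lib.P037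

theorem monotone_blk (n L : ℕ) (hL : 0 < L) (hLn : L ≤ n) : Monotone (blk n L hL hLn) := by
  intro i j hij
  show min (i.val / L) (n / L - 1) ≤ min (j.val / L) (n / L - 1)
  exact min_le_min_right _ (Nat.div_le_div_right hij)

theorem card_blk_le (n L : ℕ) (hL : 0 < L) (hLn : L ≤ n) (q : Fin (n / L)) :
    {i : Fin n | blk n L hL hLn i = q}.ncard ≤ 2 * L := by
  classical
  have hsub : (fun i : Fin n => i.val) '' {i : Fin n | blk n L hL hLn i = q}
      ⊆ ↑(Finset.Ico (q.val * L) (q.val * L + 2 * L)) := by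
    rintro _ ⟨i, hi, rfl⟩
    have hq : min (i.val / L) (n / L - 1) = q.val := congrArg Fin.val hi
    have h1 := Nat.div_add_mod i.val L
    have h2 := Nat.mod_lt i.val hL
    have h3 := Nat.div_add_mod n L
    have h4 := Nat.mod_lt n hL
    have h5 := i.isLt
    have hc : 0 < n / L := Nat.div_pos hLn hL
    obtain ⟨c', hc'⟩ : ∃ c', n / L = c' + 1 := ⟨n / L - 1, by omega⟩
    simp only [Finset.coe_Ico, Set.mem_Ico]
    rcases le_total (i.val / L) (n / L - 1) with h | h
    · rw [min_eq_left h] at hq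
      rw [hq] at h1
      have : q.val * L = L * q.val := Nat.mul_comm _ _
      omega
    · rw [min_eq_right h] at hq
      have hq' : q.val = c' := by omega
      rw [hc'] at h3
      have e1 : L * (c' + 1) = L * c' + L := by ring
      have e2 : q.val * L = L * c' := by rw [hq']; ring
      have e3 : L * c' ≤ L * (i.val / L) := Nat.mul_le_mul_left L (by omega)
      omega
  calc {i : Fin n | blk n L hL hLn i = q}.ncard
      = ((fun i : Fin n => i.val) '' {i : Fin n | blk n L hL hLn i = q}).ncard :=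
        (Set.ncard_image_of_injective _ Fin.val_injective).symm
    _ ≤ (↑(Finset.Ico (q.val * L) (q.val * L + 2 * L)) : Set ℕ).ncard :=
        Set.ncard_le_ncard hsub (Finset.finite_toSet _)
    _ = 2 * L := by rw [Set.ncard_coe_finset, Nat.card_Ico]; omega

theorem numCopies_col_le {k n : ℕ} (L : ℕ) (hL : 0 < L) (hLn : L ≤ n) (H : Fin k → Fin k → Bool)
    (hH : Unfoldable H) (A : Fin n → Fin n → Bool) (s : Fin (n / L) → Fin L) :
    numCopies H (col L hL hLn A s) ≤ (2 * L) ^ k * repCopies L H A s := by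
  classical
  unfold numCopies repCopies
  rw [Set.ncard_eq_toFinset_card', Set.ncard_eq_toFinset_card']
  apply Finset.card_le_mul_card_image_of_maps_to
    (f := fun p : (Fin k → Fin n) × (Fin k → Fin n) => (fun a => blk n L hL hLn (p.1 a), p.2))
  · intro p hp
    rw [Set.mem_toFinset] at hp ⊢
    obtain ⟨hf, hg, hc⟩ := hp
    refine ⟨?_, hg, fun a b => hc a b⟩
    intro a a' haa'
    have hlt : a.val + 1 < k := lt_of_le_of_lt haa' a'.isLt
    have h1 : blk n L hL hLn (p.1 a) ≤ blk n L hL hLn (p.1 ⟨a.val + 1, hlt⟩) :=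
      monotone_blk n L hL hLn (hf.monotone (Fin.le_def.mpr (by simp)))
    have h2 : blk n L hL hLn (p.1 ⟨a.val + 1, hlt⟩) ≤ blk n L hL hLn (p.1 a') :=
      monotone_blk n L hL hLn (hf.monotone (Fin.le_def.mpr haa'))
    have h3 : blk n L hL hLn (p.1 a) ≠ blk n L hL hLn (p.1 ⟨a.val + 1, hlt⟩) := by
      intro heq
      obtain ⟨b, hb⟩ := hH.1 a ⟨a.val + 1, hlt⟩ rfl
      apply hb
      rw [← hc a b, ← hc ⟨a.val + 1, hlt⟩ b]
      show A (row n L (blk n L hL hLn (p.1 a)) (s (blk n L hL hLn (p.1 a)))) (p.2 b)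
        = A (row n L (blk n L hL hLn (p.1 ⟨a.val + 1, hlt⟩))
            (s (blk n L hL hLn (p.1 ⟨a.val + 1, hlt⟩)))) (p.2 b)
      rw [heq]
    exact lt_of_lt_of_le (lt_of_le_of_ne h1 h3) h2
  · intro b _
    have hle : (Finset.filter (fun p : (Fin k → Fin n) × (Fin k → Fin n) =>
        (fun a => blk n L hL hLn (p.1 a), p.2) = b)
        {p : (Fin k → Fin n) × (Fin k → Fin n) | IsCopy H (col L hL hLn A s) p}.toFinset).card
        ≤ (Fintype.piFinset (fun a : Fin k => {i : Fin n | blk n L hL hLn i = b.1 a}.toFinset)).card := by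
      apply Finset.card_le_card_of_injOn (fun p => p.1)
      · intro p hp
        have hp' := (Finset.mem_filter.mp hp).2
        rw [Finset.mem_coe, Fintype.mem_piFinset]
        intro a
        rw [Set.mem_toFinset]
        show blk n L hL hLn (p.1 a) = b.1 a
        rw [← hp']
      · intro p hp p' hp' heq
        have h1 := (Finset.mem_filter.mp hp).2
        have h2 := (Finset.mem_filter.mp hp').2
        have h3 : p.2 = p'.2 := by
          have e1 := congrArg Prod.snd h1
          have e2 := congrArg Prod.snd h2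
          simp only at e1 e2
          rw [e1, e2]
        exact Prod.ext heq h3
    refine le_trans hle ?_
    rw [Fintype.card_piFinset]
    calc ∏ a : Fin k, ({i : Fin n | blk n L hL hLn i = b.1 a}.toFinset).card
        ≤ ∏ _a : Fin k, 2 * L := by
          apply Finset.prod_le_prod'
          intro a _
          rw [← Set.ncard_eq_toFinset_card']
          exact card_blk_le n L hL hLn (b.1 a)
      _ = (2 * L) ^ k := by simp

private lemma row_inj {n L : ℕ} {q q' : Fin (n / L)} {σ σ' : Fin L}
    (h : row n L q σ = row n L q' σ') : q = q' ∧ σ = σ' := by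
  have hL : 0 < L := lt_of_le_of_lt (Nat.zero_le _) σ.isLt
  have h0 : q.val * L + σ.val = q'.val * L + σ'.val := congrArg Fin.val h
  have e1 : (q.val * L + σ.val) / L = q.val := by
    rw [Nat.add_comm, Nat.add_mul_div_right _ _ hL, Nat.div_eq_of_lt σ.isLt, Nat.zero_add]
  have e2 : (q'.val * L + σ'.val) / L = q'.val := by
    rw [Nat.add_comm, Nat.add_mul_div_right _ _ hL, Nat.div_eq_of_lt σ'.isLt, Nat.zero_add]
  have hq : q.val = q'.val := by rw [← e1, ← e2, h0]
  refine ⟨Fin.ext hq, Fin.ext ?_⟩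
  rw [hq] at h0
  omega

private lemma row_lt {n L : ℕ} {q q' : Fin (n / L)} (σ σ' : Fin L) (h : q < q') :
    row n L q σ < row n L q' σ' := by
  show q.val * L + σ.val < q'.val * L + σ'.val
  have h1 : (q.val + 1) * L ≤ q'.val * L := Nat.mul_le_mul_right L h
  have h2 := σ.isLt
  have e : (q.val + 1) * L = q.val * L + L := by ring
  omega

theorem sum_repCopies_mul {k n : ℕ} (L : ℕ) (hL : 0 < L) (hLn : L ≤ n) (H : Fin k → Fin k → Bool)
    (A : Fin n → Fin n → Bool) :
    (∑ s : Fin (n / L) → Fin L, repCopies L H A s) * L ^ k ≤ L ^ (n / L) * numCopies H A := by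
  classical
  set P : Finset ((Fin k → Fin (n / L)) × (Fin k → Fin n)) :=
    Finset.univ.filter (fun p => StrictMono p.1 ∧ StrictMono p.2) with hP
  -- repCopies as a sum of indicators
  have hrep : ∀ s : Fin (n / L) → Fin L, repCopies L H A s
      = ∑ p ∈ P, if (∀ a b, A (row n L (p.1 a) (s (p.1 a))) (p.2 b) = H a b) then 1 else 0 := by
    intro s
    unfold repCopies
    rw [Set.ncard_eq_toFinset_card', ← Finset.card_filter, hP, Finset.filter_filter]
    congr 1
    ext p
    simp [and_assoc]
  have hN : ∀ p : (Fin k → Fin (n / L)) × (Fin k → Fin n),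
      (∑ s : Fin (n / L) → Fin L,
        if (∀ a b, A (row n L (p.1 a) (s (p.1 a))) (p.2 b) = H a b) then 1 else 0)
      = {s : Fin (n / L) → Fin L | s ∘ p.1 ∈
          {u : Fin k → Fin L | ∀ a b, A (row n L (p.1 a) (u a)) (p.2 b) = H a b}}.ncard := by
    intro p
    rw [Set.ncard_eq_toFinset_card', ← Finset.card_filter]
    congr 1
    ext s
    simp
  have hbase : ∀ p ∈ P, {s : Fin (n / L) → Fin L | s ∘ p.1 ∈
          {u : Fin k → Fin L | ∀ a b, A (row n L (p.1 a) (u a)) (p.2 b) = H a b}}.ncard * L ^ k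
      = {u : Fin k → Fin L | ∀ a b, A (row n L (p.1 a) (u a)) (p.2 b) = H a b}.ncard * L ^ (n / L) := by
    intro p hp
    have hp' := (Finset.mem_filter.mp hp).2
    have := Blow.base_count (X := Fin L) p.1 hp'.1.injective
      {u : Fin k → Fin L | ∀ a b, A (row n L (p.1 a) (u a)) (p.2 b) = H a b}
    simpa using this
  have hC : ∑ p ∈ P, {u : Fin k → Fin L | ∀ a b, A (row n L (p.1 a) (u a)) (p.2 b) = H a b}.ncard
      ≤ numCopies H A := by
    have e1 : ∀ p ∈ P, {u : Fin k → Fin L | ∀ a b, A (row n L (p.1 a) (u a)) (p.2 b) = H a b}.ncard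
        = (Finset.univ.filter
            (fun u : Fin k → Fin L => ∀ a b, A (row n L (p.1 a) (u a)) (p.2 b) = H a b)).card := by
      intro p _
      rw [Set.ncard_eq_toFinset_card']
      congr 1
      ext u
      simp
    rw [Finset.sum_congr rfl e1, ← Finset.card_sigma]
    unfold numCopies
    rw [Set.ncard_eq_toFinset_card']
    apply Finset.card_le_card_of_injOn
      (fun t : (_ : (Fin k → Fin (n / L)) × (Fin k → Fin n)) × (Fin k → Fin L) =>
        ((fun a => row n L (t.1.1 a) (t.2 a), t.1.2) : (Fin k → Fin n) × (Fin k → Fin n)))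
    · intro t ht
      have ht' := Finset.mem_sigma.mp ht
      have h1 := (Finset.mem_filter.mp ht'.1).2
      have h2 := (Finset.mem_filter.mp ht'.2).2
      rw [Finset.mem_coe, Set.mem_toFinset]
      exact ⟨fun a a' haa' => row_lt _ _ (h1.1 haa'), h1.2, h2⟩
    · intro t _ t' _ heq
      have h1 : (fun a => row n L (t.1.1 a) (t.2 a)) = fun a => row n L (t'.1.1 a) (t'.2 a) :=
        congrArg (fun z : (Fin k → Fin n) × (Fin k → Fin n) => z.1) heq
      have h2 : t.1.2 = t'.1.2 :=
        congrArg (fun z : (Fin k → Fin n) × (Fin k → Fin n) => z.2) heq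
      have h3 : t.1.1 = t'.1.1 := funext fun a => (row_inj (congrFun h1 a)).1
      have h4 : t.2 = t'.2 := funext fun a => (row_inj (congrFun h1 a)).2
      obtain ⟨⟨Q, g⟩, u⟩ := t
      obtain ⟨⟨Q', g'⟩, u'⟩ := t'
      simp only at h2 h3 h4
      subst h2 h3 h4
      rfl
  calc (∑ s : Fin (n / L) → Fin L, repCopies L H A s) * L ^ k
      = (∑ p ∈ P, ∑ s : Fin (n / L) → Fin L,
          if (∀ a b, A (row n L (p.1 a) (s (p.1 a))) (p.2 b) = H a b) then 1 else 0) * L ^ k := by
        rw [Finset.sum_congr rfl (fun s _ => hrep s), Finset.sum_comm]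
    _ = ∑ p ∈ P, {s : Fin (n / L) → Fin L | s ∘ p.1 ∈
          {u : Fin k → Fin L | ∀ a b, A (row n L (p.1 a) (u a)) (p.2 b) = H a b}}.ncard * L ^ k := by
        rw [Finset.sum_mul]
        exact Finset.sum_congr rfl (fun p _ => by rw [hN p])
    _ = ∑ p ∈ P,
          {u : Fin k → Fin L | ∀ a b, A (row n L (p.1 a) (u a)) (p.2 b) = H a b}.ncard * L ^ (n / L) :=
        Finset.sum_congr rfl hbase
    _ = L ^ (n / L) * ∑ p ∈ P,
          {u : Fin k → Fin L | ∀ a b, A (row n L (p.1 a) (u a)) (p.2 b) = H a b}.ncard := by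
        rw [← Finset.sum_mul, Nat.mul_comm]
    _ ≤ L ^ (n / L) * numCopies H A := Nat.mul_le_mul_left _ hC

end Vale.Agent.Lib.P037.BV
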