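import Vale.Agent.Lib.P037.BV.Defs
import Vale.Agent.Lib.P037.Blow.BaseCount

/-!
MODULES V4a, V4b (P037 BV).  FROZEN statements.  Average distance between `A` and its random row collapse.

V4a `sum_numDiff_mul`.  ROUTE: `numDiff A (col L hL hLn A s) = ∑ i, ∑ j, [A i j ≠ A (row (blk i) (s (blk i))) j]`
(write `ncard` as a sum of indicators), swap the sums; for fixed `(i, j)` the number of `s` with
`A i j ≠ A (row q (s q)) j`, `q := blk i`, times `L`, equals `L ^ (n / L) * mis i j`
(the condition depends only on the coordinate `s q`; `Blow.base_count` with `I := Unit`/`Fin 1`, `σ := fun _ => q`,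
or `Fintype.card_pi` / `Equiv.funSplitAt q`).

V4b `sum_mis_le`.  ROUTE: rows `i` with `(n / L) * L ≤ i` (fewer than `L` of them since `n < (n / L + 1) * L`): `mis ≤ L`,
total `≤ L * n * L`.  Rows `i = q * L + i'`, `i' < L` (then `blk i = q`): for fixed `q, j` the number of pairs
`(i', σ) ∈ Fin L × Fin L` with `A (row q i') j ≠ A (row q σ) j` is `0` if column `j` is constant on the block, and at most
`L ^ 2` otherwise; if it is not constant there is `i'` with `i' + 1 < L` and
`A (row q i') j ≠ A (row q (i' + 1)) j` (a Boolean sequence that is not constant has an adjacent change: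
induction / `Nat.find`), which is an element of the set counted by `vchanges`; different `(q, j)` give different
elements.  Hence the total over these rows is `≤ L ^ 2 * vchanges A`.
-/

namespace Vale.Agent.Lib.P037.BV

open Vale.Agent.Lib.P037

private theorem ncard_prod_eq_sum {n : ℕ} (P : Fin n × Fin n → Prop) [DecidablePred P] :
    {q : Fin n × Fin n | P q}.ncard = ∑ i, ∑ j, if P (i, j) then 1 else 0 := by
  rw [Set.ncard_eq_toFinset_card', Set.toFinset_ofPred, Finset.card_filter, Fintype.sum_prod_type]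

theorem sum_numDiff_mul {n : ℕ} (L : ℕ) (hL : 0 < L) (hLn : L ≤ n) (A : Fin n → Fin n → Bool) :
    (∑ s : Fin (n / L) → Fin L, numDiff A (col L hL hLn A s)) * L
      = L ^ (n / L) * ∑ i, ∑ j, mis L hL hLn A i j := by
  classical
  have h1 : ∀ s, numDiff A (col L hL hLn A s)
      = ∑ i, ∑ j, if A i j ≠ col L hL hLn A s i j then 1 else 0 := by
    intro s
    unfold numDiff
    exact ncard_prod_eq_sum (fun q => A q.1 q.2 ≠ col L hL hLn A s q.1 q.2)
  simp only [h1]
  rw [Finset.sum_comm, Finset.sum_mul, Finset.mul_sum]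
  refine Finset.sum_congr rfl fun i _ => ?_
  rw [Finset.sum_comm, Finset.sum_mul, Finset.mul_sum]
  refine Finset.sum_congr rfl fun j _ => ?_
  have hb := Blow.base_count (I := Unit) (J := Fin (n / L)) (X := Fin L)
    (fun _ => blk n L hL hLn i) (fun a b _ => Subsingleton.elim a b)
    {u | A i j ≠ A (row n L (blk n L hL hLn i) (u ())) j}
  have hs : (∑ s : Fin (n / L) → Fin L, if A i j ≠ col L hL hLn A s i j then 1 else 0)
      = {g : Fin (n / L) → Fin L | g ∘ (fun _ : Unit => blk n L hL hLn i) ∈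
          {u : Unit → Fin L | A i j ≠ A (row n L (blk n L hL hLn i) (u ())) j}}.ncard := by
    rw [Set.ncard_eq_toFinset_card', Set.toFinset_ofPred, Finset.card_filter]
    rfl
  have hC : {u : Unit → Fin L | A i j ≠ A (row n L (blk n L hL hLn i) (u ())) j}.ncard
      = mis L hL hLn A i j := by
    unfold mis
    apply Set.ncard_congr (fun u _ => u ())
    · intro u hu
      exact hu
    · intro u v _ _ h
      funext x
      cases x
      exact h
    · intro σ hσ
      exact ⟨fun _ => σ, hσ, rfl⟩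
  rw [hs, ← hC]
  simpa [mul_comm] using hb

private theorem adj_change (L : ℕ) (u : Fin L → Bool) (h : ∃ σ σ', u σ ≠ u σ') :
    ∃ m : ℕ, ∃ h1 : m + 1 < L, u ⟨m, by omega⟩ ≠ u ⟨m + 1, h1⟩ := by
  by_contra hcon
  have hcon' : ∀ (m : ℕ) (h1 : m + 1 < L), u ⟨m, by omega⟩ = u ⟨m + 1, h1⟩ := by
    intro m h1
    by_contra hne
    exact hcon ⟨m, h1, hne⟩
  obtain ⟨σ, σ', hne⟩ := h
  have hL : 0 < L := lt_of_le_of_lt (Nat.zero_le _) σ.isLt
  have hconst : ∀ (m : ℕ) (hm : m < L), u ⟨m, hm⟩ = u ⟨0, hL⟩ := by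
    intro m
    induction m with
    | zero => intro _; rfl
    | succ m ih =>
      intro hm
      rw [← hcon' m hm]
      exact ih (by omega)
  exact hne ((hconst σ.val σ.isLt).trans (hconst σ'.val σ'.isLt).symm)

private theorem mod_eq_sub (a N L : ℕ) (h1 : N * L ≤ a) (h2 : a < (N + 1) * L) :
    a % L = a - N * L := by
  obtain ⟨r, rfl⟩ := Nat.exists_eq_add_of_le h1
  have h3 : (N + 1) * L = N * L + L := by ring
  have hr : r < L := by omega
  rw [Nat.add_comm, Nat.add_mul_mod_self_right, Nat.mod_eq_of_lt hr]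
  omega

private theorem div_row (q a L : ℕ) (ha : a < L) : (q * L + a) / L = q := by
  rw [Nat.add_comm, Nat.add_mul_div_right _ _ (by omega), Nat.div_eq_of_lt ha, Nat.zero_add]

theorem sum_mis_le {n : ℕ} (L : ℕ) (hL : 0 < L) (hLn : L ≤ n) (A : Fin n → Fin n → Bool) :
    ∑ i, ∑ j, mis L hL hLn A i j ≤ L ^ 2 * (vchanges A + n) := by
  classical
  have hNL : n / L * L ≤ n := Nat.div_mul_le_self n L
  have hnlt : n < (n / L + 1) * L := by
    have := Nat.lt_mul_div_succ n hL
    rwa [mul_comm] at this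
  have hNpos : 0 < n / L := Nat.div_pos hLn hL
  let P : Fin (n / L) → Fin n → Prop :=
    fun q j => ∃ σ σ' : Fin L, A (row n L q σ) j ≠ A (row n L q σ') j
  have hwit : ∀ q j, ∃ m : ℕ, P q j → ∃ h1 : m + 1 < L,
      A (row n L q ⟨m, by omega⟩) j ≠ A (row n L q ⟨m + 1, h1⟩) j := by
    intro q j
    by_cases hP : P q j
    · obtain ⟨m, h1, hm⟩ := adj_change L (fun σ => A (row n L q σ) j) hP
      exact ⟨m, fun _ => ⟨h1, hm⟩⟩
    · exact ⟨0, fun h => absurd h hP⟩
  choose c hc using hwit
  have hmisL : ∀ i j, mis L hL hLn A i j ≤ L := by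
    intro i j
    unfold mis
    calc _ ≤ (Set.univ : Set (Fin L)).ncard :=
          Set.ncard_le_ncard (Set.subset_univ _) (Set.toFinite _)
      _ = L := by rw [Set.ncard_univ, Nat.card_eq_fintype_card, Fintype.card_fin]
  have hblk : ∀ i : Fin n, i.val < n / L * L → (blk n L hL hLn i).val = i.val / L := by
    intro i hi
    have h1 : i.val / L < n / L := Nat.div_lt_of_lt_mul (by rwa [mul_comm] at hi)
    show min (i.val / L) (n / L - 1) = i.val / L
    omega
  have hrow : ∀ i : Fin n, i.val < n / L * L →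
      row n L (blk n L hL hLn i) ⟨i.val % L, Nat.mod_lt _ hL⟩ = i := by
    intro i hi
    apply Fin.ext
    show (blk n L hL hLn i).val * L + i.val % L = i.val
    rw [hblk i hi]
    exact Nat.div_add_mod' i.val L
  have hmis0 : ∀ i j, i.val < n / L * L → ¬ P (blk n L hL hLn i) j → mis L hL hLn A i j = 0 := by
    intro i j hi hP
    unfold mis
    rw [Set.ncard_eq_zero (Set.toFinite _), Set.eq_empty_iff_forall_notMem]
    intro σ hσ
    apply hP
    refine ⟨⟨i.val % L, Nat.mod_lt _ hL⟩, σ, ?_⟩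
    rw [hrow i hi]
    exact hσ
  set E : Finset (Fin n × Fin n) :=
    Finset.univ.filter (fun p => p.1.val < n / L * L ∧ P (blk n L hL hLn p.1) p.2) with hE
  set Tl : Finset (Fin n) := Finset.univ.filter (fun i => n / L * L ≤ i.val) with hTl
  have hpt : ∀ i j, mis L hL hLn A i j
      ≤ L * (if (i, j) ∈ E then 1 else 0) + L * (if i ∈ Tl then 1 else 0) := by
    intro i j
    by_cases hi : i.val < n / L * L
    · by_cases hP : P (blk n L hL hLn i) j
      · have h1 : (i, j) ∈ E := by
          rw [hE, Finset.mem_filter]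
          exact ⟨Finset.mem_univ _, hi, hP⟩
        rw [if_pos h1]
        exact le_trans (by simpa using hmisL i j) (Nat.le_add_right _ _)
      · rw [hmis0 i j hi hP]
        exact Nat.zero_le _
    · have h1 : i ∈ Tl := by
        rw [hTl, Finset.mem_filter]
        exact ⟨Finset.mem_univ _, by omega⟩
      rw [if_pos h1]
      exact le_trans (by simpa using hmisL i j) (Nat.le_add_left _ _)
  have hsumE : ∑ i, ∑ j, (if (i, j) ∈ E then 1 else 0) = E.card := by
    rw [← Fintype.sum_prod_type (f := fun p : Fin n × Fin n => if p ∈ E then 1 else 0),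
      Finset.sum_boole]
    simp
  have hsumT : ∑ i : Fin n, ∑ _j : Fin n, (if i ∈ Tl then 1 else 0) = n * Tl.card := by
    simp only [Finset.sum_const, Finset.card_univ, Fintype.card_fin, smul_eq_mul]
    rw [← Finset.mul_sum, Finset.sum_boole]
    simp
  have hTlcard : Tl.card ≤ L := by
    have h0 : Tl.card ≤ (Finset.univ : Finset (Fin L)).card := by
      apply Finset.card_le_card_of_injOn (fun i => (⟨i.val % L, Nat.mod_lt _ hL⟩ : Fin L))
      · intro i _
        exact Finset.mem_coe.2 (Finset.mem_univ _)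
      · intro i hi i' hi' heq
        have h1 : n / L * L ≤ i.val := (Finset.mem_filter.1 (Finset.mem_coe.1 hi)).2
        have h2 : n / L * L ≤ i'.val := (Finset.mem_filter.1 (Finset.mem_coe.1 hi')).2
        have h3 : i.val % L = i'.val % L := congrArg Fin.val heq
        rw [mod_eq_sub _ _ _ h1 (lt_trans i.isLt hnlt), mod_eq_sub _ _ _ h2 (lt_trans i'.isLt hnlt)]
          at h3
        apply Fin.ext
        omega
    simpa using h0
  have hEcard : E.card ≤ vchanges A * L := by
    let F : Fin n × Fin n → ((Fin n × Fin n) × Fin n) × Fin L := fun p =>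
      (((row n L (blk n L hL hLn p.1) ⟨c (blk n L hL hLn p.1) p.2 % L, Nat.mod_lt _ hL⟩,
         row n L (blk n L hL hLn p.1) ⟨(c (blk n L hL hLn p.1) p.2 + 1) % L, Nat.mod_lt _ hL⟩),
         p.2), ⟨p.1.val % L, Nat.mod_lt _ hL⟩)
    have hmaps : ∀ p ∈ (E : Set (Fin n × Fin n)),
        F p ∈ {p : (Fin n × Fin n) × Fin n |
          p.1.2.val = p.1.1.val + 1 ∧ A p.1.1 p.2 ≠ A p.1.2 p.2} ×ˢ (Set.univ : Set (Fin L)) := by
      intro p hp
      obtain ⟨-, hi, hP⟩ := Finset.mem_filter.1 (Finset.mem_coe.1 hp)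
      obtain ⟨h1, hm⟩ := hc _ _ hP
      have e1 : (⟨c (blk n L hL hLn p.1) p.2 % L, Nat.mod_lt _ hL⟩ : Fin L)
          = ⟨c (blk n L hL hLn p.1) p.2, by omega⟩ := Fin.ext (Nat.mod_eq_of_lt (by omega))
      have e2 : (⟨(c (blk n L hL hLn p.1) p.2 + 1) % L, Nat.mod_lt _ hL⟩ : Fin L)
          = ⟨c (blk n L hL hLn p.1) p.2 + 1, h1⟩ := Fin.ext (Nat.mod_eq_of_lt h1)
      refine ⟨⟨?_, ?_⟩, Set.mem_univ _⟩
      · show (row n L (blk n L hL hLn p.1) ⟨(c (blk n L hL hLn p.1) p.2 + 1) % L, _⟩).val
          = (row n L (blk n L hL hLn p.1) ⟨c (blk n L hL hLn p.1) p.2 % L, _⟩).val + 1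
        rw [e1, e2]
        exact (Nat.add_assoc _ _ 1).symm
      · show A (row n L (blk n L hL hLn p.1) ⟨c (blk n L hL hLn p.1) p.2 % L, _⟩) p.2
          ≠ A (row n L (blk n L hL hLn p.1) ⟨(c (blk n L hL hLn p.1) p.2 + 1) % L, _⟩) p.2
        rw [e1, e2]
        exact hm
    have hinj : Set.InjOn F (E : Set (Fin n × Fin n)) := by
      intro p hp p' hp' heq
      obtain ⟨-, hi, -⟩ := Finset.mem_filter.1 (Finset.mem_coe.1 hp)
      obtain ⟨-, hi', -⟩ := Finset.mem_filter.1 (Finset.mem_coe.1 hp')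
      have h1 : (F p).1.1.1 = (F p').1.1.1 := by rw [heq]
      have h2 : (F p).1.2 = (F p').1.2 := by rw [heq]
      have h3 : (F p).2 = (F p').2 := by rw [heq]
      have h1' : (blk n L hL hLn p.1).val * L + c (blk n L hL hLn p.1) p.2 % L
          = (blk n L hL hLn p'.1).val * L + c (blk n L hL hLn p'.1) p'.2 % L :=
        congrArg Fin.val h1
      have h4 : (blk n L hL hLn p.1).val = (blk n L hL hLn p'.1).val := by
        have := congrArg (· / L) h1'
        simp only [div_row _ _ _ (Nat.mod_lt _ hL)] at this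
        exact this
      have h3' : p.1.val % L = p'.1.val % L := congrArg Fin.val h3
      rw [hblk _ hi, hblk _ hi'] at h4
      have h5 : p.1.val = p'.1.val := by
        rw [← Nat.div_add_mod' p.1.val L, ← Nat.div_add_mod' p'.1.val L, h4, h3']
      exact Prod.ext (Fin.ext h5) h2
    calc E.card = (E : Set (Fin n × Fin n)).ncard := (Set.ncard_coe_finset E).symm
      _ ≤ ({p : (Fin n × Fin n) × Fin n |
          p.1.2.val = p.1.1.val + 1 ∧ A p.1.1 p.2 ≠ A p.1.2 p.2} ×ˢ
            (Set.univ : Set (Fin L))).ncard :=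
          Set.ncard_le_ncard_of_injOn F hmaps hinj (Set.toFinite _)
      _ = vchanges A * L := by
          rw [Set.ncard_prod, Set.ncard_univ, Nat.card_eq_fintype_card, Fintype.card_fin]
          rfl
  calc ∑ i, ∑ j, mis L hL hLn A i j
      ≤ ∑ i, ∑ j, (L * (if (i, j) ∈ E then 1 else 0) + L * (if i ∈ Tl then 1 else 0)) :=
        Finset.sum_le_sum fun i _ => Finset.sum_le_sum fun j _ => hpt i j
    _ = L * E.card + L * (n * Tl.card) := by
        simp only [Finset.sum_add_distrib, ← Finset.mul_sum]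
        rw [hsumE, hsumT]
    _ ≤ L * (vchanges A * L) + L * (n * L) :=
        Nat.add_le_add (Nat.mul_le_mul_left _ hEcard)
          (Nat.mul_le_mul_left _ (Nat.mul_le_mul_left _ hTlcard))
    _ = L ^ 2 * (vchanges A + n) := by ring

end Vale.Agent.Lib.P037.BV
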