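import Mathlib
import Vale.Agent.Lib.P037.Defs

/-!
P037: hosts with few distinct rows and hosts of bounded vertical variation.  Definitions.
-/

namespace Vale.Agent.Lib.P037.BV

open Vale.Agent.Lib.P037

/-- no two adjacent rows of `H` are equal and no two adjacent columns of `H` are equal -/
def Unfoldable {k : ℕ} (H : Fin k → Fin k → Bool) : Prop :=
  (∀ a a' : Fin k, a'.val = a.val + 1 → ∃ b, H a b ≠ H a' b) ∧
  (∀ b b' : Fin k, b'.val = b.val + 1 → ∃ a, H a b ≠ H a b')

/-- the number of vertical changes of `A`: triples `(i, i + 1, j)` with `A i j ≠ A (i + 1) j` -/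
noncomputable def vchanges {n : ℕ} (A : Fin n → Fin n → Bool) : ℕ :=
  Set.ncard {p : (Fin n × Fin n) × Fin n |
    p.1.2.val = p.1.1.val + 1 ∧ A p.1.1 p.2 ≠ A p.1.2 p.2}

/-- the block (of length `L`, the last one longer) containing the row `i` -/
def blk (n L : ℕ) (hL : 0 < L) (hLn : L ≤ n) (i : Fin n) : Fin (n / L) :=
  ⟨min (i.val / L) (n / L - 1), by
    have : 0 < n / L := Nat.div_pos hLn hL
    omega⟩

/-- the row number `σ` of the block `q` -/
def row (n L : ℕ) (q : Fin (n / L)) (σ : Fin L) : Fin n :=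
  ⟨q.val * L + σ.val, by
    have h1 := σ.isLt
    have h2 := q.isLt
    have h3 : (q.val + 1) * L ≤ (n / L) * L := Nat.mul_le_mul_right L h2
    have h4 := Nat.div_mul_le_self n L
    nlinarith⟩

/-- the row collapse of `A`: every row is replaced by the representative `s q` of its block `q` -/
def col {n : ℕ} (L : ℕ) (hL : 0 < L) (hLn : L ≤ n) (A : Fin n → Fin n → Bool)
    (s : Fin (n / L) → Fin L) : Fin n → Fin n → Bool :=
  fun i j => A (row n L (blk n L hL hLn i) (s (blk n L hL hLn i))) j

/-- number of rows of the block of `i` that differ from row `i` in column `j` -/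
noncomputable def mis {n : ℕ} (L : ℕ) (hL : 0 < L) (hLn : L ≤ n) (A : Fin n → Fin n → Bool)
    (i j : Fin n) : ℕ :=
  Set.ncard {σ : Fin L | A i j ≠ A (row n L (blk n L hL hLn i) σ) j}

/-- copies of `H` in the submatrix of `A` spanned by the representatives -/
noncomputable def repCopies {k n : ℕ} (L : ℕ) (H : Fin k → Fin k → Bool)
    (A : Fin n → Fin n → Bool) (s : Fin (n / L) → Fin L) : ℕ :=
  Set.ncard {p : (Fin k → Fin (n / L)) × (Fin k → Fin n) |
    StrictMono p.1 ∧ StrictMono p.2 ∧ ∀ a b, A (row n L (p.1 a) (s (p.1 a))) (p.2 b) = H a b}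

end Vale.Agent.Lib.P037.BV
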