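import Vale.Agent.Lib.P037.BV.Defs

/-!
MODULE V2 (P037 BV).  FROZEN statements.  Monotone collapses are safe for unfoldable patterns.

ROUTE.
* `exists_retract`: the complement `Sc` of `D` is nonempty.  `ρ i := ` the largest element of `Sc` that is `≤ i`
  if there is one, and the smallest element of `Sc` otherwise (`Finset.max'`, `Finset.min'`).
* `copy_of_collapse`: `ρ ∘ p.1` is monotone; for adjacent `a, a'` equality `ρ (p.1 a) = ρ (p.1 a')` would give
  `H a b = H a' b` for all `b`, contradicting `Unfoldable`; a monotone map on `Fin k` that is strictly increasing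
  on adjacent indices is strictly monotone (induction on the difference, or `Fin.strictMono_iff_lt_succ` after
  `cases k`).  Same for columns.
* `numDiff_collapse_le`: an entry `(i, j)` can differ only if `i ∈ DR` or `j ∈ DC`; the set of such pairs has at
  most `DR.card * n + n * DC.card` elements.
* `numDiff_triangle`: pointwise, `A ≠ C` implies `A ≠ B` or `B ≠ C`; `Set.ncard_union_le`.
-/

namespace Vale.Agent.Lib.P037.BV

open Vale.Agent.Lib.P037

theorem exists_retract {n : ℕ} (D : Finset (Fin n)) (hD : D.card < n) :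
    ∃ ρ : Fin n → Fin n, Monotone ρ ∧ (∀ i, ρ i ∉ D) ∧ (∀ i, i ∉ D → ρ i = i) := by
  classical
  have hne : (Dᶜ : Finset (Fin n)).Nonempty := by
    rw [← Finset.card_pos, Finset.card_compl, Fintype.card_fin]
    omega
  refine ⟨fun i => if h : (Dᶜ.filter (· ≤ i)).Nonempty then (Dᶜ.filter (· ≤ i)).max' h
    else Dᶜ.min' hne, ?_, ?_, ?_⟩
  · intro i j hij
    have hsub : Dᶜ.filter (· ≤ i) ⊆ Dᶜ.filter (· ≤ j) := by
      intro x hx
      rw [Finset.mem_filter] at hx ⊢
      exact ⟨hx.1, hx.2.trans hij⟩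
    by_cases hi : (Dᶜ.filter (· ≤ i)).Nonempty
    · have hj : (Dᶜ.filter (· ≤ j)).Nonempty := hi.mono hsub
      simp only [hi, hj, dif_pos]
      exact Finset.max'_subset hi hsub
    · by_cases hj : (Dᶜ.filter (· ≤ j)).Nonempty
      · simp only [hi, hj, dif_pos, dif_neg, not_false_iff]
        exact Finset.min'_le _ _ (Finset.mem_filter.mp (Finset.max'_mem _ hj)).1
      · simp only [hi, hj, dif_neg, not_false_iff]
        exact le_refl _
  · intro i
    by_cases hi : (Dᶜ.filter (· ≤ i)).Nonempty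
    · simp only [hi, dif_pos]
      exact Finset.mem_compl.mp (Finset.mem_filter.mp (Finset.max'_mem _ hi)).1
    · simp only [hi, dif_neg, not_false_iff]
      exact Finset.mem_compl.mp (Finset.min'_mem _ hne)
  · intro i hiD
    have hmem : i ∈ Dᶜ.filter (· ≤ i) :=
      Finset.mem_filter.mpr ⟨Finset.mem_compl.mpr hiD, le_refl i⟩
    have hi : (Dᶜ.filter (· ≤ i)).Nonempty := ⟨i, hmem⟩
    simp only [hi, dif_pos]
    exact le_antisymm (Finset.mem_filter.mp (Finset.max'_mem _ hi)).2 (Finset.le_max' _ _ hmem)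

private lemma strictMono_of_adj {k n : ℕ} (f : Fin k → Fin n) (hf : Monotone f)
    (hadj : ∀ a a' : Fin k, a'.val = a.val + 1 → f a ≠ f a') : StrictMono f := by
  intro a b hab
  have hlt : a.val < b.val := hab
  have hk : a.val + 1 < k := lt_of_le_of_lt hlt b.isLt
  have h1 : f a ≤ f ⟨a.val + 1, hk⟩ := hf (Fin.le_def.mpr (by simp))
  have h2 : f ⟨a.val + 1, hk⟩ ≤ f b := hf (Fin.le_def.mpr (by simpa using hlt))
  exact lt_of_lt_of_le (lt_of_le_of_ne h1 (hadj a ⟨a.val + 1, hk⟩ rfl)) h2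

theorem copy_of_collapse {k n : ℕ} (H : Fin k → Fin k → Bool) (hH : Unfoldable H)
    (A : Fin n → Fin n → Bool) (ρ γ : Fin n → Fin n) (hρ : Monotone ρ) (hγ : Monotone γ)
    (p : (Fin k → Fin n) × (Fin k → Fin n)) (hp : IsCopy H (fun i j => A (ρ i) (γ j)) p) :
    IsCopy H A (ρ ∘ p.1, γ ∘ p.2) := by
  obtain ⟨h1, h2, h3⟩ := hp
  refine ⟨?_, ?_, fun i j => h3 i j⟩
  · apply strictMono_of_adj _ (hρ.comp h1.monotone)
    intro a a' haa heq
    obtain ⟨b, hb⟩ := hH.1 a a' haa
    apply hb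
    have e1 : A (ρ (p.1 a)) (γ (p.2 b)) = H a b := h3 a b
    have e2 : A (ρ (p.1 a')) (γ (p.2 b)) = H a' b := h3 a' b
    simp only [Function.comp] at heq
    rw [← e1, ← e2, heq]
  · apply strictMono_of_adj _ (hγ.comp h2.monotone)
    intro b b' hbb heq
    obtain ⟨a, ha⟩ := hH.2 b b' hbb
    apply ha
    have e1 : A (ρ (p.1 a)) (γ (p.2 b)) = H a b := h3 a b
    have e2 : A (ρ (p.1 a)) (γ (p.2 b')) = H a b' := h3 a b'
    simp only [Function.comp] at heq
    rw [← e1, ← e2, heq]

theorem numDiff_collapse_le {n : ℕ} (A : Fin n → Fin n → Bool) (ρ γ : Fin n → Fin n)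
    (DR DC : Finset (Fin n)) (hρ : ∀ i, i ∉ DR → ρ i = i) (hγ : ∀ j, j ∉ DC → γ j = j) :
    numDiff A (fun i j => A (ρ i) (γ j)) ≤ (DR.card + DC.card) * n := by
  classical
  unfold numDiff
  have hsub : {q : Fin n × Fin n | A q.1 q.2 ≠ A (ρ q.1) (γ q.2)}
      ⊆ ((DR ×ˢ Finset.univ ∪ Finset.univ ×ˢ DC : Finset (Fin n × Fin n)) : Set (Fin n × Fin n)) := by
    intro q hq
    by_contra hcon
    apply hq
    simp only [Finset.coe_union, Finset.coe_product, Finset.coe_univ, Set.mem_union, Set.mem_prod,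
      Finset.mem_coe, Set.mem_univ, and_true, true_and, not_or] at hcon
    rw [hρ _ hcon.1, hγ _ hcon.2]
  calc Set.ncard {q : Fin n × Fin n | A q.1 q.2 ≠ A (ρ q.1) (γ q.2)}
      ≤ Set.ncard ((DR ×ˢ Finset.univ ∪ Finset.univ ×ˢ DC : Finset (Fin n × Fin n)) :
          Set (Fin n × Fin n)) := Set.ncard_le_ncard hsub (Finset.finite_toSet _)
    _ = (DR ×ˢ Finset.univ ∪ Finset.univ ×ˢ DC : Finset (Fin n × Fin n)).card :=
        Set.ncard_coe_finset _
    _ ≤ (DR ×ˢ (Finset.univ : Finset (Fin n))).card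
        + ((Finset.univ : Finset (Fin n)) ×ˢ DC).card := Finset.card_union_le _ _
    _ = (DR.card + DC.card) * n := by
        rw [Finset.card_product, Finset.card_product, Finset.card_univ, Fintype.card_fin]
        ring

theorem numDiff_triangle {n : ℕ} (A B C : Fin n → Fin n → Bool) :
    numDiff A C ≤ numDiff A B + numDiff B C := by
  unfold numDiff
  have hsub : {q : Fin n × Fin n | A q.1 q.2 ≠ C q.1 q.2}
      ⊆ {q : Fin n × Fin n | A q.1 q.2 ≠ B q.1 q.2} ∪ {q : Fin n × Fin n | B q.1 q.2 ≠ C q.1 q.2} := by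
    intro q hq
    by_cases h : A q.1 q.2 = B q.1 q.2
    · right
      intro h2
      exact hq (h.trans h2)
    · left
      exact h
  exact (Set.ncard_le_ncard hsub (Set.toFinite _)).trans (Set.ncard_union_le _ _)

end Vale.Agent.Lib.P037.BV
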