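import Vale.Agent.Lib.P037.BV.OneDim
import Vale.Agent.Lib.P037.BV.Retract

/-!
MODULE V3 (P037 BV).  FROZEN statement (uses V1 `hit_or_many` and V2 as black boxes).

STATEMENT.  `A` has at most `T` distinct rows (`t` = type of a row).  For every `w` with `T ^ k * (k * w) < n`:
either `A` has `w ^ (2 k)` copies of `H`, or some `H`-free `B` differs from `A` in at most
`T ^ k * (k * w) * n` entries.

ROUTE.  For `τ : Fin k → Fin T` put `SR τ a := {i | t i = τ a}` and
`SC τ b := {c | ∀ a i, t i = τ a → A i c = H a b}`.  Apply `hit_or_many` to `SR τ` and to `SC τ`.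
* If for some `τ` both have `≥ w ^ k` occurrences: `(f, g) ↦ (f, g)` maps pairs of occurrences injectively to
  copies of `H` (`A (f a) (g b) = H a b` because `t (f a) = τ a` and `g b ∈ SC τ b`), so
  `w ^ k * w ^ k ≤ numCopies H A` (`Set.ncard_prod`, `Set.ncard_le_ncard`); `w ^ (2 * k) = w ^ k * w ^ k`.
* Otherwise choose for every `τ` a pair `(DRτ, DCτ)` of finsets, one of them a hitting set of size `≤ k * w`
  and the other empty.  `DR := univ.biUnion DRτ`, `DC := univ.biUnion DCτ`,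
  `DR.card + DC.card ≤ ∑ τ, (DRτ.card + DCτ.card) ≤ T ^ k * (k * w) < n`
  (`Finset.card_biUnion_le`, `Fintype.card_fun`, `Fintype.card_fin`).
  Take retractions `ρ`, `γ` (`exists_retract`), `B := fun i j => A (ρ i) (γ j)`.
  `numDiff_collapse_le` bounds the distance.  `B` is `H`-free: a copy `p` of `H` in `B` gives by
  `copy_of_collapse` the copy `(ρ ∘ p.1, γ ∘ p.2)` of `H` in `A`; with `τ := t ∘ ρ ∘ p.1` the rows are an occurrence for
  `SR τ` avoiding `DR`, and the columns are an occurrence for `SC τ` (if `t i = τ a = t (ρ (p.1 a))` then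
  `A i = A (ρ (p.1 a))` by `ht`) avoiding `DC`; this contradicts the hitting set chosen for `τ`.
-/

namespace Vale.Agent.Lib.P037.BV

open Vale.Agent.Lib.P037

theorem few_rows_nat {k n T : ℕ} (H : Fin k → Fin k → Bool) (hH : Unfoldable H)
    (A : Fin n → Fin n → Bool) (t : Fin n → Fin T) (ht : ∀ i i', t i = t i' → A i = A i')
    (w : ℕ) (hw : T ^ k * (k * w) < n) :
    w ^ (2 * k) ≤ numCopies H A ∨
      ∃ B : Fin n → Fin n → Bool, IsFree H B ∧ numDiff A B ≤ T ^ k * (k * w) * n := by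
  classical
  set SR : (Fin k → Fin T) → Fin k → Set (Fin n) := fun τ a => {i | t i = τ a} with hSR
  set SC : (Fin k → Fin T) → Fin k → Set (Fin n) :=
    fun τ b => {c | ∀ a i, t i = τ a → A i c = H a b} with hSC
  by_cases hbig : ∃ τ, w ^ k ≤ {f : Fin k → Fin n | StrictMono f ∧ ∀ a, f a ∈ SR τ a}.ncard ∧
      w ^ k ≤ {f : Fin k → Fin n | StrictMono f ∧ ∀ a, f a ∈ SC τ a}.ncard
  · left
    obtain ⟨τ, h1, h2⟩ := hbig
    have hsub : {f : Fin k → Fin n | StrictMono f ∧ ∀ a, f a ∈ SR τ a} ×ˢ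
        {f : Fin k → Fin n | StrictMono f ∧ ∀ a, f a ∈ SC τ a} ⊆ {p | IsCopy H A p} := by
      rintro ⟨f, g⟩ ⟨⟨hf, hf2⟩, ⟨hg, hg2⟩⟩
      exact ⟨hf, hg, fun a b => hg2 b a (f a) (hf2 a)⟩
    calc w ^ (2 * k) = w ^ k * w ^ k := by rw [two_mul, pow_add]
      _ ≤ {f : Fin k → Fin n | StrictMono f ∧ ∀ a, f a ∈ SR τ a}.ncard *
          {f : Fin k → Fin n | StrictMono f ∧ ∀ a, f a ∈ SC τ a}.ncard := Nat.mul_le_mul h1 h2
      _ = ({f : Fin k → Fin n | StrictMono f ∧ ∀ a, f a ∈ SR τ a} ×ˢ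
          {f : Fin k → Fin n | StrictMono f ∧ ∀ a, f a ∈ SC τ a}).ncard := (Set.ncard_prod).symm
      _ ≤ numCopies H A := Set.ncard_le_ncard hsub (Set.toFinite _)
  · right
    have hbig' : ∀ τ, w ^ k ≤ {f : Fin k → Fin n | StrictMono f ∧ ∀ a, f a ∈ SR τ a}.ncard →
        ¬ w ^ k ≤ {f : Fin k → Fin n | StrictMono f ∧ ∀ a, f a ∈ SC τ a}.ncard :=
      fun τ h1 h2 => hbig ⟨τ, h1, h2⟩
    have hch : ∀ τ : Fin k → Fin T, ∃ DD : Finset (Fin n) × Finset (Fin n),
        DD.1.card + DD.2.card ≤ k * w ∧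
        ((∀ f : Fin k → Fin n, StrictMono f → (∀ a, f a ∈ SR τ a) → ∃ a, f a ∈ DD.1) ∨
         (∀ f : Fin k → Fin n, StrictMono f → (∀ a, f a ∈ SC τ a) → ∃ a, f a ∈ DD.2)) := by
      intro τ
      rcases hit_or_many (SR τ) w with h1 | ⟨D, hD, hhit⟩
      · rcases hit_or_many (SC τ) w with h2 | ⟨D, hD, hhit⟩
        · exact absurd h2 (hbig' τ h1)
        · exact ⟨(∅, D), by simpa using hD, Or.inr hhit⟩
      · exact ⟨(D, ∅), by simpa using hD, Or.inl hhit⟩
    choose DD hcard hhit using hch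
    set DR : Finset (Fin n) := Finset.univ.biUnion fun τ => (DD τ).1 with hDR
    set DC : Finset (Fin n) := Finset.univ.biUnion fun τ => (DD τ).2 with hDC
    have hsum : DR.card + DC.card ≤ T ^ k * (k * w) := by
      calc DR.card + DC.card ≤ ∑ τ, (DD τ).1.card + ∑ τ, (DD τ).2.card :=
            Nat.add_le_add Finset.card_biUnion_le Finset.card_biUnion_le
        _ = ∑ τ, ((DD τ).1.card + (DD τ).2.card) := Finset.sum_add_distrib.symm
        _ ≤ ∑ _τ : Fin k → Fin T, k * w := Finset.sum_le_sum fun τ _ => hcard τ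
        _ = T ^ k * (k * w) := by simp [Finset.card_univ]
    obtain ⟨ρ, hρm, hρD, hρid⟩ := exists_retract DR (by omega)
    obtain ⟨γ, hγm, hγD, hγid⟩ := exists_retract DC (by omega)
    refine ⟨fun i j => A (ρ i) (γ j), ?_, ?_⟩
    · intro p hp
      obtain ⟨hf, hg, hval⟩ := copy_of_collapse H hH A ρ γ hρm hγm p hp
      rcases hhit (fun a => t (ρ (p.1 a))) with h | h
      · obtain ⟨a, ha⟩ := h (ρ ∘ p.1) hf (fun a => rfl)
        exact hρD (p.1 a) (Finset.mem_biUnion.2 ⟨_, Finset.mem_univ _, ha⟩)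
      · obtain ⟨b, hb⟩ := h (γ ∘ p.2) hg (fun b a i hi => by
          have h3 : A i = A (ρ (p.1 a)) := ht _ _ hi
          rw [h3]
          exact hval a b)
        exact hγD (p.2 b) (Finset.mem_biUnion.2 ⟨_, Finset.mem_univ _, hb⟩)
    · calc numDiff A (fun i j => A (ρ i) (γ j)) ≤ (DR.card + DC.card) * n :=
            numDiff_collapse_le A ρ γ DR DC hρid hγid
        _ ≤ T ^ k * (k * w) * n := Nat.mul_le_mul_right n hsum

end Vale.Agent.Lib.P037.BV
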