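import Mathlib

/-!
MODULE V1 (P037 BV).  FROZEN statement.  One-dimensional removal lemma, pure combinatorics.

STATEMENT.  `S a ⊆ Fin n` for `a : Fin k`.  An occurrence is a strictly increasing `f : Fin k → Fin n` with
`f a ∈ S a`.  For every `w`: either there are at least `w ^ k` occurrences, or at most `k * w` points
hit all occurrences.

ROUTE (greedy).  Generalise: for every bound `p : ℕ` consider occurrences with all values `≥ p`
(induction on `k`, peeling off the FIRST index, e.g. with `Fin.cons` / `Fin.tail`).
Let `S0 := {i ∈ S 0 | p ≤ i}`.  If `S0` has fewer than `w` elements, `D := S0` hits everything.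
Otherwise let `D0` be the `w` smallest elements of `S0` and `p' := max D0 + 1`.
Apply the induction hypothesis to `S ∘ succ` and `p'`.
* If it gives `w ^ k'` occurrences with values `≥ p'`, prepend any element of `D0`: `w * w ^ k'` occurrences.
* If it gives a hitting set `D'`, take `D := D0 ∪ D'`: an occurrence `f` avoiding `D0` has `f 0 ≥ p'`
  (it is in `S0` and not among the `w` smallest), so its tail has values `≥ p'` and is hit by `D'`.
-/

namespace Vale.Agent.Lib.P037.BV

/-- discrete intermediate value for a counting function. -/
private theorem step_ivt (c : ℕ → ℕ) (h0 : c 0 = 0) (hs : ∀ q, c (q + 1) ≤ c q + 1) :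
    ∀ (N w : ℕ), w ≤ c N → ∃ q, c q = w := by
  intro N
  induction N with
  | zero =>
    intro w hw
    exact ⟨0, by omega⟩
  | succ N ih =>
    intro w hw
    by_cases h : w ≤ c N
    · exact ih w h
    · exact ⟨N + 1, by have := hs N; omega⟩

/-- an initial segment with exactly `w` elements. -/
private theorem exists_initial {n : ℕ} (T : Finset (Fin n)) (w : ℕ) (hw : w ≤ T.card) :
    ∃ q : ℕ, (T.filter (fun i : Fin n => (i : ℕ) < q)).card = w := by
  apply step_ivt (fun q => (T.filter (fun i : Fin n => (i : ℕ) < q)).card) _ _ n w
  · have : T.filter (fun i : Fin n => (i : ℕ) < n) = T := by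
      apply Finset.filter_true_of_mem
      intro i _
      exact i.2
    simpa [this] using hw
  · simp
  · intro q
    have hsub : T.filter (fun i : Fin n => (i : ℕ) < q + 1) ⊆
        T.filter (fun i : Fin n => (i : ℕ) < q) ∪ T.filter (fun i : Fin n => (i : ℕ) = q) := by
      intro i hi
      simp only [Finset.mem_filter, Finset.mem_union] at hi ⊢
      rcases Nat.lt_succ_iff_lt_or_eq.mp hi.2 with h | h
      · exact Or.inl ⟨hi.1, h⟩
      · exact Or.inr ⟨hi.1, h⟩
    have h1 : (T.filter (fun i : Fin n => (i : ℕ) = q)).card ≤ 1 := by
      rw [Finset.card_le_one]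
      intro a ha b hb
      simp only [Finset.mem_filter] at ha hb
      exact Fin.ext (ha.2.trans hb.2.symm)
    calc (T.filter (fun i : Fin n => (i : ℕ) < q + 1)).card
        ≤ (T.filter (fun i : Fin n => (i : ℕ) < q) ∪ T.filter (fun i : Fin n => (i : ℕ) = q)).card :=
          Finset.card_le_card hsub
      _ ≤ (T.filter (fun i : Fin n => (i : ℕ) < q)).card + (T.filter (fun i : Fin n => (i : ℕ) = q)).card :=
          Finset.card_union_le _ _
      _ ≤ (T.filter (fun i : Fin n => (i : ℕ) < q)).card + 1 := by omega

private theorem hit_or_many_aux {n : ℕ} (w : ℕ) : ∀ (k : ℕ) (S : Fin k → Set (Fin n)) (p : ℕ),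
    (w ^ k ≤ {f : Fin k → Fin n | StrictMono f ∧ (∀ a, f a ∈ S a) ∧
        ∀ a, p ≤ (f a : ℕ)}.ncard) ∨
    (∃ D : Finset (Fin n), D.card ≤ k * w ∧
      ∀ f : Fin k → Fin n, StrictMono f → (∀ a, f a ∈ S a) → (∀ a, p ≤ (f a : ℕ)) →
        ∃ a, f a ∈ D) := by
  classical
  intro k
  induction k with
  | zero =>
    intro S p
    left
    have : {f : Fin 0 → Fin n | StrictMono f ∧ (∀ a, f a ∈ S a) ∧
        ∀ a, p ≤ (f a : ℕ)} = {fun a => a.elim0} := by
      ext f
      simp only [Set.mem_ofPred_eq, Set.mem_singleton_iff]
      constructor
      · intro _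
        exact Subsingleton.elim _ _
      · intro _
        exact ⟨fun a => a.elim0, fun a => a.elim0, fun a => a.elim0⟩
    rw [this]
    simp
  | succ k ih =>
    intro S p
    set S0 : Finset (Fin n) := Finset.univ.filter (fun i : Fin n => i ∈ S 0 ∧ p ≤ (i : ℕ)) with hS0
    by_cases hw : S0.card < w
    · right
      refine ⟨S0, ?_, ?_⟩
      · nlinarith
      · intro f _ hf hp
        exact ⟨0, by simp [hS0, hf 0, hp 0]⟩
    · obtain ⟨q, hq⟩ := exists_initial S0 w (not_lt.mp hw)
      set D0 : Finset (Fin n) := S0.filter (fun i : Fin n => (i : ℕ) < q) with hD0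
      rcases ih (fun a => S a.succ) q with hmany | ⟨D', hD'card, hD'⟩
      · left
        set A' : Set (Fin k → Fin n) := {g : Fin k → Fin n | StrictMono g ∧
          (∀ a, g a ∈ S a.succ) ∧ ∀ a, q ≤ (g a : ℕ)} with hA'
        set A : Set (Fin (k + 1) → Fin n) := {f : Fin (k + 1) → Fin n | StrictMono f ∧
          (∀ a, f a ∈ S a) ∧ ∀ a, p ≤ (f a : ℕ)} with hA
        let φ : Fin n × (Fin k → Fin n) → (Fin (k + 1) → Fin n) :=
          fun x => Fin.cons x.1 x.2
        have hφ : Function.Injective φ := by
          intro x y hxy
          have h1 : x.1 = y.1 := by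
            have := congrFun hxy 0
            simpa [φ] using this
          have h2 : x.2 = y.2 := by
            funext a
            have := congrFun hxy a.succ
            simpa [φ] using this
          exact Prod.ext h1 h2
        have hsub : φ '' ((D0 : Set (Fin n)) ×ˢ A') ⊆ A := by
          rintro _ ⟨⟨d, g⟩, ⟨hd, hg⟩, rfl⟩
          simp only [Finset.mem_coe, hD0, hS0, Finset.mem_filter, Finset.mem_univ,
            true_and] at hd
          obtain ⟨⟨hdS, hdp⟩, hdq⟩ := hd
          obtain ⟨hgm, hgS, hgq⟩ := hg
          refine ⟨?_, ?_, ?_⟩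
          · intro a b hab
            induction a using Fin.cases with
            | zero =>
              induction b using Fin.cases with
              | zero => exact absurd hab (lt_irrefl _)
              | succ j =>
                simp only [φ, Fin.cons_zero, Fin.cons_succ]
                exact Fin.lt_def.mpr (lt_of_lt_of_le hdq (hgq j))
            | succ i =>
              induction b using Fin.cases with
              | zero => exact absurd hab (Fin.not_lt_zero _)
              | succ j =>
                simp only [φ, Fin.cons_succ]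
                exact hgm (Fin.succ_lt_succ_iff.mp hab)
          · intro a
            induction a using Fin.cases with
            | zero => simpa [φ] using hdS
            | succ i => simpa [φ] using hgS i
          · intro a
            induction a using Fin.cases with
            | zero => simpa [φ] using hdp
            | succ i =>
              have h3 : q ≤ ((g i : Fin n) : ℕ) := hgq i
              change p ≤ ((g i : Fin n) : ℕ)
              omega
        calc w ^ (k + 1) = w * w ^ k := by ring
          _ ≤ w * A'.ncard := Nat.mul_le_mul_left _ hmany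
          _ = ((D0 : Set (Fin n)) ×ˢ A').ncard := by
              rw [Set.ncard_prod, Set.ncard_coe_finset, hq]
          _ = (φ '' ((D0 : Set (Fin n)) ×ˢ A')).ncard :=
              (Set.ncard_image_of_injective _ hφ).symm
          _ ≤ A.ncard := Set.ncard_le_ncard hsub (Set.toFinite _)
      · right
        refine ⟨D0 ∪ D', ?_, ?_⟩
        · calc (D0 ∪ D').card ≤ D0.card + D'.card := Finset.card_union_le _ _
            _ ≤ w + k * w := by omega
            _ = (k + 1) * w := by ring
        · intro f hfm hfS hfp
          by_cases h0 : f 0 ∈ D0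
          · exact ⟨0, Finset.mem_union_left _ h0⟩
          · have hq0 : q ≤ (f 0 : ℕ) := by
              by_contra hlt
              apply h0
              simp only [hD0, hS0, Finset.mem_filter, Finset.mem_univ, true_and]
              exact ⟨⟨hfS 0, hfp 0⟩, not_le.mp hlt⟩
            obtain ⟨a, ha⟩ := hD' (fun a => f a.succ)
              (fun a b hab => hfm (Fin.succ_lt_succ_iff.mpr hab))
              (fun a => hfS a.succ)
              (fun a => by
                have : f 0 < f a.succ := hfm (Fin.succ_pos a)
                have := Fin.lt_def.mp this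
                omega)
            exact ⟨a.succ, Finset.mem_union_right _ ha⟩

theorem hit_or_many {n k : ℕ} (S : Fin k → Set (Fin n)) (w : ℕ) :
    (w ^ k ≤ {f : Fin k → Fin n | StrictMono f ∧ ∀ a, f a ∈ S a}.ncard) ∨
    (∃ D : Finset (Fin n), D.card ≤ k * w ∧
      ∀ f : Fin k → Fin n, StrictMono f → (∀ a, f a ∈ S a) → ∃ a, f a ∈ D) := by
  rcases hit_or_many_aux w k S 0 with h | ⟨D, hD, h⟩
  · left
    simpa using h
  · right
    exact ⟨D, hD, fun f hf hS => h f hf hS (fun _ => Nat.zero_le _)⟩

end Vale.Agent.Lib.P037.BV
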