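import Vale.Agent.Lib.P037.BV.Main

/-!
P037 BV: transposition, and the symmetric forms of the two host theorems.
-/

namespace Vale.Agent.Lib.P037.BV

open Vale.Agent.Lib.P037

/-- transpose -/
def tr {m : ℕ} (A : Fin m → Fin m → Bool) : Fin m → Fin m → Bool := fun i j => A j i

theorem isCopy_tr {k n : ℕ} (H : Fin k → Fin k → Bool) (A : Fin n → Fin n → Bool)
    (p : (Fin k → Fin n) × (Fin k → Fin n)) : IsCopy (tr H) (tr A) p ↔ IsCopy H A p.swap := by
  constructor
  · rintro ⟨h1, h2, h3⟩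
    exact ⟨h2, h1, fun i j => h3 j i⟩
  · rintro ⟨h1, h2, h3⟩
    exact ⟨h2, h1, fun i j => h3 j i⟩

theorem numCopies_tr {k n : ℕ} (H : Fin k → Fin k → Bool) (A : Fin n → Fin n → Bool) :
    numCopies (tr H) (tr A) = numCopies H A := by
  unfold numCopies
  have : {p : (Fin k → Fin n) × (Fin k → Fin n) | IsCopy (tr H) (tr A) p}
      = Prod.swap '' {p : (Fin k → Fin n) × (Fin k → Fin n) | IsCopy H A p} := by
    ext p
    simp only [Set.mem_setOf_eq, Set.mem_image]
    constructor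
    · intro hp
      exact ⟨p.swap, (isCopy_tr H A p).mp hp, Prod.swap_swap p⟩
    · rintro ⟨q, hq, rfl⟩
      exact (isCopy_tr H A q.swap).mpr (by rwa [Prod.swap_swap])
  rw [this, Set.ncard_image_of_injective _ Prod.swap_injective]

theorem isFree_tr {k n : ℕ} (H : Fin k → Fin k → Bool) (A : Fin n → Fin n → Bool)
    (h : IsFree (tr H) A) : IsFree H (tr A) := by
  intro p hp
  apply h p.swap
  have := (isCopy_tr H (tr A) p.swap).mpr (by rwa [Prod.swap_swap])
  exact this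

theorem numDiff_tr {n : ℕ} (A B : Fin n → Fin n → Bool) :
    numDiff (tr A) (tr B) = numDiff A B := by
  unfold numDiff
  have : {q : Fin n × Fin n | tr A q.1 q.2 ≠ tr B q.1 q.2}
      = Prod.swap '' {q : Fin n × Fin n | A q.1 q.2 ≠ B q.1 q.2} := by
    ext q
    simp only [Set.mem_setOf_eq, Set.mem_image]
    constructor
    · intro hq
      exact ⟨q.swap, hq, Prod.swap_swap q⟩
    · rintro ⟨r, hr, rfl⟩
      exact hr
  rw [this, Set.ncard_image_of_injective _ Prod.swap_injective]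

theorem isFar_tr {k n : ℕ} (H : Fin k → Fin k → Bool) (A : Fin n → Fin n → Bool) (ε : ℝ)
    (h : IsFar H A ε) : IsFar (tr H) (tr A) ε := by
  intro B hB
  have h1 := h (tr B) (isFree_tr H B hB)
  have h2 : numDiff (tr A) B = numDiff A (tr B) := numDiff_tr A (tr B)
  rw [h2]
  exact h1

theorem unfoldable_tr {k : ℕ} (H : Fin k → Fin k → Bool) (h : Unfoldable H) :
    Unfoldable (tr H) := ⟨h.2, h.1⟩

/-- hosts with at most `T` distinct columns -/
theorem few_cols {k n T : ℕ} (hk : 1 ≤ k) (hT : 1 ≤ T) (hn : 1 ≤ n)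
    (H : Fin k → Fin k → Bool) (hH : Unfoldable H)
    (A : Fin n → Fin n → Bool) (t : Fin n → Fin T)
    (ht : ∀ j j', t j = t j' → ∀ i, A i j = A i j')
    (ε : ℝ) (hε : 0 < ε) (hε1 : ε < 1) (hfar : IsFar H A ε) :
    (ε / (2 * k * (T : ℝ) ^ k)) ^ (2 * k) * (n : ℝ) ^ (2 * k) ≤ (numCopies H A : ℝ) := by
  rw [← numCopies_tr H A]
  exact few_rows hk hT hn (tr H) (unfoldable_tr H hH) (tr A) t
    (fun j j' h => funext (fun i => ht j j' h i)) ε hε hε1 (isFar_tr H A ε hfar)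

/-- hosts with at most `V n` horizontal changes -/
theorem bv_hosts_tr {k n : ℕ} (hk : 1 ≤ k) (hn : 1 ≤ n)
    (H : Fin k → Fin k → Bool) (hH : Unfoldable H)
    (A : Fin n → Fin n → Bool) (V : ℝ) (hV : 0 ≤ V)
    (hVA : (vchanges (fun i j => A j i) : ℝ) ≤ V * n)
    (ε : ℝ) (hε : 0 < ε) (hε1 : ε < 1) (hfar : IsFar H A ε) :
    (ε ^ (k + 1) / (4 * k * (8 * (V + 1)) ^ k)) ^ (2 * k) / 2 ^ (k + 1) * (n : ℝ) ^ (2 * k)
      ≤ (numCopies H A : ℝ) := by
  rw [← numCopies_tr H A]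
  exact bv_hosts hk hn (tr H) (unfoldable_tr H hH) (tr A) V hV hVA ε hε hε1 (isFar_tr H A ε hfar)

end Vale.Agent.Lib.P037.BV
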